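import Vale.Agent.P256.Main

/-! P256: a hyperbolicity cone that is not a spectrahedron. -/

namespace Vale.Agent.Results.P256.GenLax

/-- `p` is homogeneous, `p e > 0`, and every complex root of `t ↦ p (t e - x)` is real -/
def Hyperbolic {n : ℕ} (p : MvPolynomial (Fin n) ℝ) (e : Fin n → ℝ) : Prop :=
  (∃ d : ℕ, p.IsHomogeneous d) ∧ 0 < MvPolynomial.eval e p ∧
    ∀ (x : Fin n → ℝ) (t : ℂ),
      MvPolynomial.aeval (fun i => t * (e i : ℂ) - (x i : ℂ)) p = 0 → t.im = 0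

/-- the closed hyperbolicity cone -/
def hypCone {n : ℕ} (p : MvPolynomial (Fin n) ℝ) (e : Fin n → ℝ) : Set (Fin n → ℝ) :=
  {x | ∀ t : ℝ, MvPolynomial.eval (t • e - x) p = 0 → 0 ≤ t}

/-- the solution set of a linear matrix inequality -/
def IsSpectrahedron {n : ℕ} (S : Set (Fin n → ℝ)) : Prop :=
  ∃ (m : ℕ) (A0 : Matrix (Fin m) (Fin m) ℝ) (A : Fin n → Matrix (Fin m) (Fin m) ℝ),
    A0.IsSymm ∧ (∀ i, (A i).IsSymm) ∧ S = {x | (A0 + ∑ i, x i • A i).PosSemidef}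

theorem result : ∃ (n : ℕ) (p : MvPolynomial (Fin n) ℝ) (e : Fin n → ℝ),
    Hyperbolic p e ∧ ¬ IsSpectrahedron (hypCone p e) :=
  ⟨35, Vale.Agent.P256.pol, Vale.Agent.P256.e0,
    ⟨⟨20, Vale.Agent.P256.pol_hom⟩, Vale.Agent.P256.pol_pos, Vale.Agent.P256.pol_hyp⟩,
    fun ⟨_, A0, A, _, hA, h⟩ => Vale.Agent.P256.not_lmi A0 A hA (Set.ext_iff.1 h)⟩

end Vale.Agent.Results.P256.GenLax
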